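import Vale.Agent.P146.Main

namespace Vale.Agent.Results.P146.PowerSaving

open MeasureTheory ProbabilityTheory

/-- The pairs `i < j`. -/
abbrev Pair (n : ℕ) : Type := {p : Fin n × Fin n // p.1 < p.2}

/-- The spin value: `true` is `1`, `false` is `-1`. -/
def spin (b : Bool) : ℝ := if b then 1 else -1

/-- The law of the disorder: independent standard Gaussians indexed by the pairs `i < j`. -/
noncomputable def law (n : ℕ) : Measure (Pair n → ℝ) := Measure.pi fun _ => gaussianReal 0 1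

/-- The free energy `F_n(β) = log ∑_σ exp (β H_n(σ))`. -/
noncomputable def F (β : ℝ) (n : ℕ) (g : Pair n → ℝ) : ℝ :=
  Real.log (∑ σ : Fin n → Bool,
    Real.exp (β / Real.sqrt n * ∑ p : Pair n, g p * spin (σ p.1.1) * spin (σ p.1.2)))

theorem result (β : ℝ) (hβ : 0 < β) : ∃ C : ℝ, ∀ n : ℕ, 1 ≤ n →
    MemLp (F β n) 2 (law n) ∧ variance (F β n) (law n) ≤ C * (n : ℝ) ^ (1 - 1 / 35000 : ℝ) :=
  Vale.Agent.P146.main hβ

end Vale.Agent.Results.P146.PowerSaving
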